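import Vale.Agent.P199.Defs

set_option linter.unusedSectionVars false
set_option linter.unusedVariables false
set_option linter.style.haveILetI false

universe u v w

namespace Vale.Agent.P199

open scoped TensorProduct

variable (k : Type u) {D : Type v} [Field k] [DivisionRing D] [Algebra k D]

theorem conj_relation (g : Dˣ) (hg : IsIntegral k (g : D)) (hg' : IsIntegral k ((g⁻¹ : Dˣ) : D)) :
    ∃ (s : Finset ℕ) (c : ℕ → k), (∃ i ∈ s, c i ≠ 0) ∧
    ∀ x : D, ∑ i ∈ s, c i • (((g ^ i : Dˣ) : D) * x * (((g ^ i)⁻¹ : Dˣ) : D)) = 0 := by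
  classical
  haveI : Module.Finite k (Algebra.adjoin k {(g : D)}) :=
    Module.Finite.iff_fg.mpr hg.fg_adjoin_singleton
  haveI : Module.Finite k (Algebra.adjoin k {((g⁻¹ : Dˣ) : D)}) :=
    Module.Finite.iff_fg.mpr hg'.fg_adjoin_singleton
  have hE : ∀ n : ℕ, ((g ^ n : Dˣ) : D) ∈ Algebra.adjoin k {(g : D)} := fun n => by
    rw [Units.val_pow_eq_pow_val]
    exact pow_mem (Algebra.subset_adjoin (Set.mem_singleton _)) n
  have hF : ∀ n : ℕ, (((g ^ n)⁻¹ : Dˣ) : D) ∈ Algebra.adjoin k {((g⁻¹ : Dˣ) : D)} := fun n => by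
    rw [← inv_pow, Units.val_pow_eq_pow_val]
    exact pow_mem (Algebra.subset_adjoin (Set.mem_singleton _)) n
  let v : ℕ → (Algebra.adjoin k {(g : D)}) ⊗[k] (Algebra.adjoin k {((g⁻¹ : Dˣ) : D)}) :=
    fun n => (⟨_, hE n⟩ : Algebra.adjoin k {(g : D)}) ⊗ₜ[k]
      (⟨_, hF n⟩ : Algebra.adjoin k {((g⁻¹ : Dˣ) : D)})
  have hv : ¬ LinearIndependent k v := fun h => by
    have := h.finite_of_isNoetherian
    exact not_finite ℕ
  rw [not_linearIndependent_iff] at hv
  obtain ⟨s, c, hrel, i, his, hci⟩ := hv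
  refine ⟨s, c, ⟨i, his, hci⟩, fun x => ?_⟩
  let B : (Algebra.adjoin k {(g : D)}) →ₗ[k] (Algebra.adjoin k {((g⁻¹ : Dˣ) : D)}) →ₗ[k] D :=
    LinearMap.mk₂ k (fun e f => (e : D) * x * (f : D))
    (fun a b f => by simp [add_mul])
    (fun a b f => by simp [Algebra.smul_mul_assoc])
    (fun a b f => by simp [mul_add])
    (fun a b f => by simp [Algebra.mul_smul_comm])
  have := congrArg (TensorProduct.lift B) hrel
  simpa [v, B, map_sum] using this

include k in
theorem dedekind_period (g : Dˣ) (hg : IsIntegral k (g : D))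
    (hg' : IsIntegral k ((g⁻¹ : Dˣ) : D)) (Z : Subgroup Dˣ)
    (hZc : ∀ a ∈ Z, ∀ b ∈ Z, a * b = b * a)
    (hgZ : ∀ z ∈ Z, g * z * g⁻¹ ∈ Z) :
    ∃ e : ℕ, 0 < e ∧ ∀ z ∈ Z, g ^ e * z = z * g ^ e := by
  classical
  obtain ⟨s, c, ⟨i₀, hi₀, hc₀⟩, hrel⟩ := conj_relation k g hg hg'
  have hpow : ∀ (n : ℕ), ∀ z ∈ Z, g ^ n * z * (g ^ n)⁻¹ ∈ Z := by
    intro n
    induction n with
    | zero => intro z hz; simpa using hz
    | succ n ih =>
      intro z hz
      have := hgZ _ (ih z hz)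
      have e : g ^ (n + 1) * z * (g ^ (n + 1))⁻¹ = g * (g ^ n * z * (g ^ n)⁻¹) * g⁻¹ := by
        rw [pow_succ', mul_inv_rev]; group
      rw [e]; exact this
  let S : Set D := (fun z : Dˣ => (z : D)) '' (Z : Set Dˣ)
  have hS : ∀ a ∈ S, ∀ b ∈ S, a * b = b * a := by
    rintro _ ⟨a, ha, rfl⟩ _ ⟨b, hb, rfl⟩
    have := hZc a ha b hb
    simpa using congrArg Units.val this
  letI : CommRing (Algebra.adjoin k S) := Algebra.adjoinCommRingOfComm k hS
  haveI : IsDomain (Algebra.adjoin k S) := Subalgebra.isDomain _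
  have hmem : ∀ (n : ℕ) (z : Z), ((g ^ n * (z : Dˣ) * (g ^ n)⁻¹ : Dˣ) : D) ∈ Algebra.adjoin k S :=
    fun n z => Algebra.subset_adjoin ⟨_, hpow n z z.2, rfl⟩
  let φ : ℕ → (↥Z →* Algebra.adjoin k S) := fun n =>
    { toFun := fun z => ⟨_, hmem n z⟩
      map_one' := by ext; simp
      map_mul' := fun a b => by ext; simp [mul_assoc] }
  have hind := linearIndependent_monoidHom (↥Z) (Algebra.adjoin k S)
  by_cases hinj : Set.InjOn φ (s : Set ℕ)
  · exfalso
    have hφ : LinearIndependent (Algebra.adjoin k S) (fun i : s => ((φ i : ↥Z →* Algebra.adjoin k S) : ↥Z → Algebra.adjoin k S)) := by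
      have := hind.comp (fun i : s => φ i) (fun a b h => Subtype.ext (hinj a.2 b.2 h))
      exact this
    rw [Fintype.linearIndependent_iff] at hφ
    have := hφ (fun i => algebraMap k _ (c i)) (by
      ext z
      have h := hrel ((z : Dˣ) : D)
      rw [← Finset.sum_coe_sort s] at h
      simpa [φ, Algebra.smul_def] using h)
    have h2 := this ⟨i₀, hi₀⟩
    simp only at h2
    apply hc₀
    have h3 := congrArg (fun x : Algebra.adjoin k S => (x : D)) h2
    simpa using h3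
  · rw [Set.InjOn] at hinj
    push_neg at hinj
    obtain ⟨a, ha, b, hb, hab, hne⟩ := hinj
    have key : ∀ (a b : ℕ), a < b → φ a = φ b → ∃ e : ℕ, 0 < e ∧ ∀ z ∈ Z, g ^ e * z = z * g ^ e := by
      intro a b hlt h
      refine ⟨b - a, Nat.sub_pos_of_lt hlt, fun z hz => ?_⟩
      have h1 := congrArg (fun f => ((f ⟨z, hz⟩ : Algebra.adjoin k S) : D)) h
      simp [φ] at h1
      have h2 : g ^ a * z * (g ^ a)⁻¹ = g ^ b * z * (g ^ b)⁻¹ := by
        exact Units.ext (by simpa using h1)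
      have hb : b = a + (b - a) := by omega
      have h3 : g ^ b = g ^ a * g ^ (b - a) := by rw [← pow_add, ← hb]
      rw [h3] at h2
      have h4 : z * g ^ (b - a) = g ^ (b - a) * z := by
        have : g ^ a * z * (g ^ a)⁻¹ * (g ^ a * g ^ (b - a)) = g ^ a * g ^ (b - a) * z * (g ^ a * g ^ (b - a))⁻¹ * (g ^ a * g ^ (b - a)) := by rw [h2]
        simp only [mul_assoc, inv_mul_cancel_left, inv_mul_cancel, mul_one, mul_right_inj] at this
        exact this
      exact h4.symm
    rcases lt_or_gt_of_ne hne with h | h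
    · exact key a b h hab
    · exact key b a h hab.symm


/-- coset independence -/
theorem coset_independence {ι : Type w} [DecidableEq ι] (N W : Subgroup Dˣ) (R : Subalgebra k D)
    (hRN : ∀ r ∈ R, ∀ x ∈ N, r * ((x : Dˣ) : D) = (x : D) * r)
    (hRW : ∀ r ∈ R, ∀ x ∈ W, r * ((x : Dˣ) : D) = (x : D) * r)
    (hWR : ∀ x ∈ W, ((x : Dˣ) : D) ∈ R)
    (hcomm : ∀ x ∈ N, ∀ y ∈ N, x * y * x⁻¹ * y⁻¹ ∈ W)
    (s : Finset ι) (v : ι → Dˣ) (hv : ∀ i ∈ s, v i ∈ N)
    (hne : ∀ i ∈ s, ∀ j ∈ s, i ≠ j → ∃ u ∈ N, u * ((v j)⁻¹ * v i) ≠ ((v j)⁻¹ * v i) * u) :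
    ∀ f : ι → D, (∀ i ∈ s, f i ∈ R) → ∑ i ∈ s, f i * (v i : D) = 0 → ∀ i ∈ s, f i = 0 := by
  induction s using Finset.induction_on with
  | empty => simp
  | insert i₀ s' hi₀ ih =>
    intro f hf hsum
    have hv' : ∀ i ∈ s', v i ∈ N := fun i hi => hv i (Finset.mem_insert_of_mem hi)
    have hne' : ∀ i ∈ s', ∀ j ∈ s', i ≠ j → ∃ u ∈ N, u * ((v j)⁻¹ * v i) ≠ ((v j)⁻¹ * v i) * u :=
      fun i hi j hj => hne i (Finset.mem_insert_of_mem hi) j (Finset.mem_insert_of_mem hj)
    have ih' := ih hv' hne'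
    have hzero : ∀ i₁ ∈ s', f i₁ = 0 := by
      intro i₁ hi₁
      have hne₁ : i₁ ≠ i₀ := fun h => hi₀ (h ▸ hi₁)
      obtain ⟨u, huN, hu⟩ := hne i₁ (Finset.mem_insert_of_mem hi₁) i₀ (Finset.mem_insert_self _ _) hne₁
      let μ : ι → Dˣ := fun i => u * v i * u⁻¹ * (v i)⁻¹
      have hμW : ∀ i ∈ insert i₀ s', μ i ∈ W := fun i hi => hcomm u huN (v i) (hv i hi)
      have hconj : ∀ i ∈ insert i₀ s', ((u : Dˣ) : D) * (f i * (v i : D)) * ((u⁻¹ : Dˣ) : D) =
          f i * (μ i : D) * (v i : D) := by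
        intro i hi
        have h1 : (u : D) * f i = f i * (u : D) := (hRN (f i) (hf i hi) u huN).symm
        have h2 : ((μ i : Dˣ) : D) * (v i : D) = (u : D) * (v i : D) * ((u⁻¹ : Dˣ) : D) := by
          have : μ i * v i = u * v i * u⁻¹ := by simp [μ]
          simpa using congrArg Units.val this
        rw [mul_assoc (f i), h2, ← mul_assoc (u : D), h1]
        simp only [mul_assoc]
      have h1 : ∑ i ∈ insert i₀ s', f i * (μ i : D) * (v i : D) = 0 := by
        rw [← Finset.sum_congr rfl hconj, ← Finset.sum_mul, ← Finset.mul_sum, hsum]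
        simp
      have h2 : ∑ i ∈ insert i₀ s', f i * (μ i₀ : D) * (v i : D) = 0 := by
        have hcomm' : ∀ i ∈ insert i₀ s', f i * (μ i₀ : D) * (v i : D) = (μ i₀ : D) * (f i * (v i : D)) := by
          intro i hi
          rw [hRW (f i) (hf i hi) (μ i₀) (hμW i₀ (Finset.mem_insert_self _ _))]
          simp only [mul_assoc]
        rw [Finset.sum_congr rfl hcomm', ← Finset.mul_sum, hsum, mul_zero]
      have h3 : ∑ i ∈ s', (f i * ((μ i : D) - (μ i₀ : D))) * (v i : D) = 0 := by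
        have h4 : ∑ i ∈ insert i₀ s', (f i * ((μ i : D) - (μ i₀ : D))) * (v i : D) = 0 := by
          have : ∀ i ∈ insert i₀ s', (f i * ((μ i : D) - (μ i₀ : D))) * (v i : D) =
              f i * (μ i : D) * (v i : D) - f i * (μ i₀ : D) * (v i : D) := by
            intro i _
            rw [mul_sub, sub_mul]
          rw [Finset.sum_congr rfl this, Finset.sum_sub_distrib, h1, h2, sub_zero]
        rw [Finset.sum_insert hi₀] at h4
        simpa using h4
      have h5 := ih' (fun i => f i * ((μ i : D) - (μ i₀ : D)))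
        (fun i hi => R.mul_mem (hf i (Finset.mem_insert_of_mem hi))
          (R.sub_mem (hWR _ (hμW i (Finset.mem_insert_of_mem hi)))
            (hWR _ (hμW i₀ (Finset.mem_insert_self _ _))))) h3 i₁ hi₁
      rcases mul_eq_zero.mp h5 with h6 | h6
      · exact h6
      · exfalso
        apply hu
        have h7 : μ i₁ = μ i₀ := Units.ext (sub_eq_zero.mp h6)
        simp only [μ] at h7
        have h8 : v i₁ * u⁻¹ * (v i₁)⁻¹ = v i₀ * u⁻¹ * (v i₀)⁻¹ := by
          have : u * (v i₁ * u⁻¹ * (v i₁)⁻¹) = u * (v i₀ * u⁻¹ * (v i₀)⁻¹) := by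
            simpa [mul_assoc] using h7
          exact mul_left_cancel this
        have h9 : (v i₀)⁻¹ * v i₁ * u⁻¹ = u⁻¹ * ((v i₀)⁻¹ * v i₁) := by
          calc (v i₀)⁻¹ * v i₁ * u⁻¹ = (v i₀)⁻¹ * (v i₁ * u⁻¹ * (v i₁)⁻¹) * v i₁ := by group
            _ = (v i₀)⁻¹ * (v i₀ * u⁻¹ * (v i₀)⁻¹) * v i₁ := by rw [h8]
            _ = u⁻¹ * ((v i₀)⁻¹ * v i₁) := by group
        calc u * ((v i₀)⁻¹ * v i₁) = u * ((v i₀)⁻¹ * v i₁ * u⁻¹) * u := by group
          _ = u * (u⁻¹ * ((v i₀)⁻¹ * v i₁)) * u := by rw [h9]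
          _ = ((v i₀)⁻¹ * v i₁) * u := by group
    intro i hi
    rcases Finset.mem_insert.mp hi with rfl | hi
    · rw [Finset.sum_insert hi₀, Finset.sum_eq_zero (fun j hj => by rw [hzero j hj, zero_mul]), add_zero] at hsum
      rcases mul_eq_zero.mp hsum with h | h
      · exact h
      · exact absurd h (Units.ne_zero _)
    · exact hzero i hi


section Period

variable (N W : Subgroup Dˣ) (g : Dˣ)

private theorem pow_conj_mem (hgN : ∀ x ∈ N, g * x * g⁻¹ ∈ N) (n : ℕ) :
    ∀ x ∈ N, g ^ n * x * (g ^ n)⁻¹ ∈ N := by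
  induction n with
  | zero => intro z hz; simpa using hz
  | succ n ih =>
    intro z hz
    have := hgN _ (ih z hz)
    have e : g ^ (n + 1) * z * (g ^ (n + 1))⁻¹ = g * (g ^ n * z * (g ^ n)⁻¹) * g⁻¹ := by
      rw [pow_succ', mul_inv_rev]; group
    rw [e]; exact this

private theorem pow_conj_mem' (hgN : ∀ x ∈ N, g⁻¹ * x * g ∈ N) (n : ℕ) :
    ∀ x ∈ N, (g ^ n)⁻¹ * x * g ^ n ∈ N := by
  have := pow_conj_mem N g⁻¹ (by simpa using hgN) n
  simpa using this

include k in
theorem exists_period (hg : IsIntegral k (g : D)) (hg' : IsIntegral k ((g⁻¹ : Dˣ) : D))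
    (hgN : ∀ x ∈ N, g * x * g⁻¹ ∈ N) (hgN' : ∀ x ∈ N, g⁻¹ * x * g ∈ N)
    (hWN : ∀ w ∈ W, ∀ x ∈ N, w * x = x * w)
    (hWW : ∀ w ∈ W, ∀ x ∈ W, w * x = x * w)
    (hcomm : ∀ x ∈ N, ∀ y ∈ N, x * y * x⁻¹ * y⁻¹ ∈ W) :
    ∃ M : ℕ, 0 < M ∧ ∀ x ∈ N, ∀ t : ℕ, ∀ u ∈ N,
      u * (x⁻¹ * (g ^ (t * M) * x * (g ^ (t * M))⁻¹)) = (x⁻¹ * (g ^ (t * M) * x * (g ^ (t * M))⁻¹)) * u := by
  classical
  obtain ⟨s, c, ⟨i₀, hi₀, hc₀⟩, hrel⟩ := conj_relation k g hg hg'
  have hback : ∀ (n : ℕ) (y : Dˣ), (∀ u ∈ N, u * y = y * u) → ∀ u ∈ N,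
      u * ((g ^ n)⁻¹ * y * g ^ n) = ((g ^ n)⁻¹ * y * g ^ n) * u := by
    intro n y hy u hu
    have h := hy _ (pow_conj_mem N g hgN n u hu)
    have e1 : u * ((g ^ n)⁻¹ * y * g ^ n) = (g ^ n)⁻¹ * ((g ^ n * u * (g ^ n)⁻¹) * y) * g ^ n := by group
    have e2 : ((g ^ n)⁻¹ * y * g ^ n) * u = (g ^ n)⁻¹ * (y * (g ^ n * u * (g ^ n)⁻¹)) * g ^ n := by group
    rw [e1, e2, h]
  have hfwd : ∀ (n : ℕ) (y : Dˣ), (∀ u ∈ N, u * y = y * u) → ∀ u ∈ N,
      u * (g ^ n * y * (g ^ n)⁻¹) = (g ^ n * y * (g ^ n)⁻¹) * u := by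
    intro n y hy u hu
    have h := hy _ (pow_conj_mem' N g hgN' n u hu)
    have e1 : u * (g ^ n * y * (g ^ n)⁻¹) = g ^ n * (((g ^ n)⁻¹ * u * g ^ n) * y) * (g ^ n)⁻¹ := by group
    have e2 : (g ^ n * y * (g ^ n)⁻¹) * u = g ^ n * (y * ((g ^ n)⁻¹ * u * g ^ n)) * (g ^ n)⁻¹ := by group
    rw [e1, e2, h]
  -- the algebra generated by the commutators
  let R : Subalgebra k D := Algebra.adjoin k ((fun z : Dˣ => (z : D)) '' (W : Set Dˣ))
  have hRcomm : ∀ y : Dˣ, (∀ w ∈ W, w * y = y * w) → ∀ r ∈ R, r * (y : D) = (y : D) * r := by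
    intro y hy r hr
    have hle : R ≤ Subalgebra.centralizer k ({(y : D)} : Set D) := by
      apply Algebra.adjoin_le
      rintro _ ⟨w, hw, rfl⟩
      rw [SetLike.mem_coe, Subalgebra.mem_centralizer_iff]
      rintro _ rfl
      simpa using (congrArg Units.val (hy w hw)).symm
    have := hle hr
    rw [Subalgebra.mem_centralizer_iff] at this
    exact (this _ rfl).symm
  have hRN : ∀ r ∈ R, ∀ x ∈ N, r * ((x : Dˣ) : D) = (x : D) * r :=
    fun r hr x hx => hRcomm x (fun w hw => hWN w hw x hx) r hr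
  have hRW : ∀ r ∈ R, ∀ x ∈ W, r * ((x : Dˣ) : D) = (x : D) * r :=
    fun r hr x hx => hRcomm x (fun w hw => hWW w hw x hx) r hr
  have hWR : ∀ x ∈ W, ((x : Dˣ) : D) ∈ R := fun x hx => Algebra.subset_adjoin ⟨x, hx, rfl⟩
  -- step: one period for each x
  have hstep : ∀ x ∈ N, ∃ a : ℕ, 0 < a ∧ a ≤ s.sup id ∧ ∀ u ∈ N,
      u * (x⁻¹ * (g ^ a * x * (g ^ a)⁻¹)) = (x⁻¹ * (g ^ a * x * (g ^ a)⁻¹)) * u := by
    intro x hx
    let v : ℕ → Dˣ := fun i => g ^ i * x * (g ^ i)⁻¹
    have hvN : ∀ i, v i ∈ N := fun i => pow_conj_mem N g hgN i x hx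
    let s' := s.filter (fun i => c i ≠ 0)
    have hsum : ∑ i ∈ s', (algebraMap k D (c i)) * (v i : D) = 0 := by
      have h := hrel (x : D)
      rw [← Finset.sum_filter_of_ne (p := fun i => c i ≠ 0)] at h
      · simpa [v, s', Algebra.smul_def] using h
      · intro i _ hi hci
        apply hi
        simp [hci]
    have hnot : ¬ ∀ i ∈ s', ∀ j ∈ s', i ≠ j → ∃ u ∈ N, u * ((v j)⁻¹ * v i) ≠ ((v j)⁻¹ * v i) * u := by
      intro h
      have := coset_independence k N W R hRN hRW hWR hcomm s' v (fun i _ => hvN i) h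
        (fun i => algebraMap k D (c i)) (fun i _ => R.algebraMap_mem _) hsum
        i₀ (Finset.mem_filter.mpr ⟨hi₀, hc₀⟩)
      apply hc₀
      simpa using this
    push_neg at hnot
    obtain ⟨i, hi, j, hj, hij, hcom⟩ := hnot
    have hi' : i ∈ s := (Finset.mem_filter.mp hi).1
    have hj' : j ∈ s := (Finset.mem_filter.mp hj).1
    have hile : i ≤ s.sup id := Finset.le_sup (f := id) hi'
    have hjle : j ≤ s.sup id := Finset.le_sup (f := id) hj'
    rcases lt_or_gt_of_ne hij with hlt | hlt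
    · refine ⟨j - i, Nat.sub_pos_of_lt hlt, by omega, ?_⟩
      have hb := hback i _ hcom
      have e : ∀ u ∈ N, u * ((x⁻¹ * (g ^ (j - i) * x * (g ^ (j - i))⁻¹))⁻¹) = ((x⁻¹ * (g ^ (j - i) * x * (g ^ (j - i))⁻¹))⁻¹) * u := by
        intro u hu
        have := hb u hu
        have hj2 : g ^ j = g ^ i * g ^ (j - i) := by rw [← pow_add]; congr 1; omega
        have e3 : (g ^ i)⁻¹ * ((v j)⁻¹ * v i) * g ^ i = (x⁻¹ * (g ^ (j - i) * x * (g ^ (j - i))⁻¹))⁻¹ := by
          simp only [v]; rw [hj2]; group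
        rwa [e3] at this
      intro u hu
      have := e u hu
      exact (Commute.inv_right_iff.mp (show Commute u _ from this))
    · refine ⟨i - j, Nat.sub_pos_of_lt hlt, by omega, ?_⟩
      have hb := hback j _ hcom
      intro u hu
      have := hb u hu
      have hi2 : g ^ i = g ^ j * g ^ (i - j) := by rw [← pow_add]; congr 1; omega
      have e3 : (g ^ j)⁻¹ * ((v j)⁻¹ * v i) * g ^ j = x⁻¹ * (g ^ (i - j) * x * (g ^ (i - j))⁻¹) := by
        simp only [v]; rw [hi2]; group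
      rwa [e3] at this
  refine ⟨(s.sup id).factorial, Nat.factorial_pos _, fun x hx t u hu => ?_⟩
  obtain ⟨a, ha0, hale, ha⟩ := hstep x hx
  obtain ⟨q, hq⟩ := Nat.dvd_factorial ha0 hale
  have hmul : ∀ m : ℕ, ∀ u ∈ N, u * (x⁻¹ * (g ^ (m * a) * x * (g ^ (m * a))⁻¹)) =
      (x⁻¹ * (g ^ (m * a) * x * (g ^ (m * a))⁻¹)) * u := by
    intro m
    induction m with
    | zero => intro u _; simp
    | succ m ih =>
      intro u hu
      have h1 := hfwd a _ ih u hu
      have h2 := ha u hu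
      have e : x⁻¹ * (g ^ ((m + 1) * a) * x * (g ^ ((m + 1) * a))⁻¹) =
          (x⁻¹ * (g ^ a * x * (g ^ a)⁻¹)) * (g ^ a * (x⁻¹ * (g ^ (m * a) * x * (g ^ (m * a))⁻¹)) * (g ^ a)⁻¹) := by
        have : g ^ ((m + 1) * a) = g ^ a * g ^ (m * a) := by rw [← pow_add]; congr 1; ring
        rw [this]; group
      rw [e]
      exact (Commute.mul_right (show Commute u _ from h2) (show Commute u _ from h1))
  have e : t * (s.sup id).factorial = (t * q) * a := by rw [hq]; ring
  rw [e]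
  exact hmul (t * q) u hu


private theorem aeval_conj (a : Dˣ) (h : D) (p : Polynomial k) :
    Polynomial.aeval ((a : D) * h * ((a⁻¹ : Dˣ) : D)) p = (a : D) * Polynomial.aeval h p * ((a⁻¹ : Dˣ) : D) := by
  rw [Polynomial.aeval_eq_sum_range, Polynomial.aeval_eq_sum_range, Finset.mul_sum, Finset.sum_mul]
  refine Finset.sum_congr rfl fun i _ => ?_
  rw [Units.conj_pow, Algebra.mul_smul_comm, Algebra.smul_mul_assoc]

include k in
/-- the roots argument -/
theorem torsion_of_conj (h : Dˣ) (hint : IsIntegral k (h : D)) :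
    ∃ d : ℕ, ∀ lam x : Dˣ, lam * h = h * lam → x⁻¹ * h * x = lam * h → x * lam = lam * x →
      lam ^ d.factorial = 1 := by
  classical
  refine ⟨(minpoly k (h : D)).natDegree, fun lam x hl hx hlx => ?_⟩
  set d := (minpoly k (h : D)).natDegree with hd
  have hconj : ∀ i : ℕ, x⁻¹ ^ i * h * (x⁻¹ ^ i)⁻¹ = lam ^ i * h := by
    intro i
    induction i with
    | zero => simp
    | succ i ih =>
      have hcomm : x⁻¹ * lam = lam * x⁻¹ := by
        have : Commute x lam := hlx
        exact this.inv_left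
      have hcomm' : Commute x⁻¹ (lam ^ i) := (show Commute x⁻¹ lam from hcomm).pow_right i
      calc x⁻¹ ^ (i + 1) * h * (x⁻¹ ^ (i + 1))⁻¹ = x⁻¹ * (x⁻¹ ^ i * h * (x⁻¹ ^ i)⁻¹) * x := by
            rw [pow_succ']; group
        _ = x⁻¹ * (lam ^ i * h) * x := by rw [ih]
        _ = (x⁻¹ * lam ^ i) * h * x := by group
        _ = (lam ^ i * x⁻¹) * h * x := by rw [hcomm'.eq]
        _ = lam ^ i * (x⁻¹ * h * x) := by group
        _ = lam ^ i * (lam * h) := by rw [hx]
        _ = lam ^ (i + 1) * h := by rw [pow_succ, mul_assoc]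
  have hroot : ∀ i : ℕ, Polynomial.aeval (((lam ^ i * h : Dˣ)) : D) (minpoly k (h : D)) = 0 := by
    intro i
    rw [← hconj i]
    have := aeval_conj k (x⁻¹ ^ i) (h : D) (minpoly k (h : D))
    rw [minpoly.aeval, mul_zero, zero_mul] at this
    simpa using this
  let S : Set D := {(lam : D), (h : D)}
  have hS : ∀ a ∈ S, ∀ b ∈ S, a * b = b * a := by
    have hl' : (lam : D) * (h : D) = (h : D) * (lam : D) := by
      simpa using congrArg Units.val hl
    rintro a (rfl | rfl) b (rfl | rfl)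
    · rfl
    · exact hl'
    · exact hl'.symm
    · rfl
  letI : CommRing (Algebra.adjoin k S) := Algebra.adjoinCommRingOfComm k hS
  haveI : IsDomain (Algebra.adjoin k S) := Subalgebra.isDomain _
  have hmem : ∀ i : ℕ, (((lam ^ i * h : Dˣ)) : D) ∈ Algebra.adjoin k S := fun i => by
    rw [Units.val_mul, Units.val_pow_eq_pow_val]
    have h1 : (lam : D) ∈ Algebra.adjoin k S := Algebra.subset_adjoin (Set.mem_insert _ _)
    have h2 : (h : D) ∈ Algebra.adjoin k S :=
      Algebra.subset_adjoin (Set.mem_insert_of_mem _ (Set.mem_singleton _))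
    exact Subalgebra.mul_mem _ (pow_mem h1 i) h2
  let r : Fin (d + 1) → Algebra.adjoin k S := fun i => ⟨_, hmem i⟩
  have heval : ∀ i, ((minpoly k (h : D)).map (algebraMap k (Algebra.adjoin k S))).eval (r i) = 0 := by
    intro i
    rw [Polynomial.eval_map_algebraMap]
    apply Subtype.ext
    show (Algebra.adjoin k S).val (Polynomial.aeval (r i) _) = 0
    rw [← Polynomial.aeval_algHom_apply]
    exact hroot i
  have hninj : ¬ Function.Injective r := by
    intro hinj
    have h0 := Polynomial.eq_zero_of_natDegree_lt_card_of_eval_eq_zero _ hinj heval (by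
      rw [Fintype.card_fin]; exact Nat.lt_succ_of_le Polynomial.natDegree_map_le)
    have := Polynomial.map_eq_zero_iff (FaithfulSMul.algebraMap_injective k (Algebra.adjoin k S)) |>.mp h0
    exact minpoly.ne_zero hint this
  rw [Function.Injective] at hninj
  push_neg at hninj
  obtain ⟨i, j, hij, hne⟩ := hninj
  have hval : ((lam ^ (i : ℕ) * h : Dˣ) : D) = ((lam ^ (j : ℕ) * h : Dˣ) : D) :=
    congrArg Subtype.val hij
  have hpow : lam ^ (i : ℕ) = lam ^ (j : ℕ) := mul_right_cancel (Units.ext hval)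
  have hne' : (i : ℕ) ≠ j := fun h => hne (Fin.ext h)
  have key : ∀ a b : ℕ, a < b → b ≤ d → lam ^ a = lam ^ b → lam ^ d.factorial = 1 := by
    intro a b hab hb he
    have h1 : lam ^ (b - a) = 1 := by
      have : lam ^ a * lam ^ (b - a) = lam ^ a * 1 := by
        rw [← pow_add, mul_one, he]; congr 1; omega
      exact mul_left_cancel this
    obtain ⟨q, hq⟩ := Nat.dvd_factorial (Nat.sub_pos_of_lt hab) (by omega : b - a ≤ d)
    rw [hq, pow_mul, h1, one_pow]
  have hi := i.2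
  have hj := j.2
  rcases lt_or_gt_of_ne hne' with hlt | hlt
  · exact key _ _ hlt (by omega) hpow
  · exact key _ _ hlt (by omega) hpow.symm

include k in
/-- Main lemma on centralising powers. -/
theorem central_power (hpow : ∀ n : ℕ, IsIntegral k ((g ^ n : Dˣ) : D))
    (hg' : IsIntegral k ((g⁻¹ : Dˣ) : D))
    (hgN : ∀ x ∈ N, g * x * g⁻¹ ∈ N) (hgN' : ∀ x ∈ N, g⁻¹ * x * g ∈ N)
    (hWN : ∀ w ∈ W, ∀ x ∈ N, w * x = x * w)
    (hWW : ∀ w ∈ W, ∀ x ∈ W, w * x = x * w)
    (hcomm : ∀ x ∈ N, ∀ y ∈ N, x * y * x⁻¹ * y⁻¹ ∈ W) :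
    ∃ n : ℕ, 0 < n ∧ ∀ x ∈ N, g ^ n * x = x * g ^ n := by
  have hg : IsIntegral k (g : D) := by simpa using hpow 1
  obtain ⟨M, hM, hper⟩ := exists_period k N W g hg hg' hgN hgN' hWN hWW hcomm
  let Z : Subgroup Dˣ := N ⊓ Subgroup.centralizer (N : Set Dˣ)
  have hZc : ∀ a ∈ Z, ∀ b ∈ Z, a * b = b * a := fun a ha b hb =>
    (Subgroup.mem_centralizer_iff.mp hb.2) a ha.1
  have hgZ : ∀ z ∈ Z, g * z * g⁻¹ ∈ Z := by
    intro z hz
    refine ⟨hgN z hz.1, Subgroup.mem_centralizer_iff.mpr fun u hu => ?_⟩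
    have h := (Subgroup.mem_centralizer_iff.mp hz.2) _ (hgN' u hu)
    have e1 : u * (g * z * g⁻¹) = g * ((g⁻¹ * u * g) * z) * g⁻¹ := by group
    have e2 : (g * z * g⁻¹) * u = g * (z * (g⁻¹ * u * g)) * g⁻¹ := by group
    rw [e1, e2, h]
  obtain ⟨e₁, he₁, hcomZ⟩ := dedekind_period k g hg hg' Z hZc hgZ
  let h : Dˣ := g ^ (e₁ * M)
  obtain ⟨d, hd⟩ := torsion_of_conj k h (hpow _)
  refine ⟨e₁ * M * d.factorial, Nat.mul_pos (Nat.mul_pos he₁ hM) (Nat.factorial_pos _), fun x hx => ?_⟩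
  have hpowN : ∀ y ∈ N, h * y * h⁻¹ ∈ N := fun y hy => pow_conj_mem N g hgN _ y hy
  let lam : Dˣ := x⁻¹ * (h * x * h⁻¹)
  have hlamN : lam ∈ N := N.mul_mem (N.inv_mem hx) (hpowN x hx)
  have hlamC : ∀ u ∈ N, u * lam = lam * u := hper x hx e₁
  have hlamZ : lam ∈ Z := ⟨hlamN, Subgroup.mem_centralizer_iff.mpr hlamC⟩
  have hlh : lam * h = h * lam := by
    have h1 : g ^ e₁ * lam = lam * g ^ e₁ := hcomZ lam hlamZ
    have h2 : Commute lam (g ^ e₁) := h1.symm
    have h3 : Commute lam h := by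
      have : h = (g ^ e₁) ^ M := by simp [h, pow_mul]
      rw [this]
      exact h2.pow_right M
    exact h3
  have hxh : x⁻¹ * h * x = lam * h := by simp [lam, mul_assoc]
  have hxl : x * lam = lam * x := hlamC x hx
  have h1 := hd lam x hlh hxh hxl
  have h2 : x⁻¹ * h ^ d.factorial * x = h ^ d.factorial := by
    have h3 : (x⁻¹ * h * x) ^ d.factorial = x⁻¹ * h ^ d.factorial * x := by
      have := conj_pow (a := x⁻¹) (b := h) (i := d.factorial)
      simpa using this
    rw [← h3, hxh, (show Commute lam h from hlh).mul_pow, h1, one_mul]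
  have h4 : g ^ (e₁ * M * d.factorial) = h ^ d.factorial := by simp [h, pow_mul]
  rw [h4]
  have h5 : x * (x⁻¹ * h ^ d.factorial * x) = x * h ^ d.factorial := by rw [h2]
  simpa [mul_assoc] using h5

end Period


theorem finite_of_fg_torsion_derived (n : ℕ) : ∀ (Γ : Type w) [Group Γ] [Group.FG Γ],
    derivedSeries Γ n = ⊥ → IsMulTorsion Γ → Finite Γ := by
  induction n with
  | zero =>
    intro Γ _ _ h _
    rw [derivedSeries_zero] at h
    have : Subsingleton Γ := by
      refine ⟨fun a b => ?_⟩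
      have ha : a ∈ (⊥ : Subgroup Γ) := h ▸ Subgroup.mem_top a
      have hb : b ∈ (⊥ : Subgroup Γ) := h ▸ Subgroup.mem_top b
      rw [Subgroup.mem_bot] at ha hb
      rw [ha, hb]
    infer_instance
  | succ n ih =>
    intro Γ _ _ h hT
    haveI : Group.FG (Abelianization Γ) := QuotientGroup.fg (commutator Γ)
    have hA : Finite (Abelianization Γ) := by
      apply CommGroup.finite_of_fg_isMulTorsion
      exact IsMulTorsion.of_surjective (f := QuotientGroup.mk' (commutator Γ)) (QuotientGroup.mk'_surjective _) hT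
    haveI : Finite (Γ ⧸ commutator Γ) := hA
    haveI : (commutator Γ).FiniteIndex := Subgroup.finiteIndex_of_finite_quotient
    have hmap : ∀ m : ℕ, (derivedSeries (commutator Γ) m).map (commutator Γ).subtype ≤ derivedSeries Γ (m + 1) := by
      intro m
      induction m with
      | zero =>
        rw [derivedSeries_zero, ← MonoidHom.range_eq_map, Subgroup.range_subtype]
        exact le_rfl
      | succ m ihm =>
        rw [derivedSeries_succ, Subgroup.map_commutator, derivedSeries_succ]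
        exact Subgroup.commutator_mono ihm ihm
    have hd : derivedSeries (commutator Γ) n = ⊥ := by
      have := hmap n
      rw [h, le_bot_iff, Subgroup.map_eq_bot_iff_of_injective _ (Subgroup.subtype_injective _)] at this
      exact this
    have hK : Finite (commutator Γ) := ih _ hd (IsMulTorsion.subgroup hT _)
    exact Finite.of_equiv _ (Subgroup.groupEquivQuotientProdSubgroup (s := commutator Γ)).symm

theorem finite_of_fg_solvable_torsion (Γ : Type w) [Group Γ] [Group.FG Γ] [Group.IsSolvable Γ]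
    (hT : IsMulTorsion Γ) : Finite Γ := by
  obtain ⟨n, hn⟩ := Group.isSolvable_def Γ |>.mp inferInstance
  exact finite_of_fg_torsion_derived n Γ hn hT


include k in
theorem main_induction (ℓ : ℕ) : ∀ (A : Type w) [Group A] [Group.FG A] [Group.IsSolvable A]
    (ρ : A →* Dˣ) (W : Subgroup A), (∀ a, IsIntegral k ((ρ a : Dˣ) : D)) →
    (∀ w ∈ W, ∀ a, ρ w * ρ a = ρ a * ρ w) →
    derivedSeries A ℓ ≤ W →
    ∃ B : Subgroup A, B.FiniteIndex ∧ ∀ a ∈ B, ∀ b ∈ B, ρ a * ρ b = ρ b * ρ a := by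
  induction ℓ with
  | zero =>
    intro A _ _ _ ρ W hρ hW hle
    refine ⟨⊤, inferInstance, fun a _ b _ => hW a (hle (by simp)) b⟩
  | succ ℓ ih =>
    intro A _ _ _ ρ W hρ hW hle
    let N : Subgroup A := derivedSeries A ℓ
    haveI hNn : N.Normal := derivedSeries_normal A ℓ
    let N' : Subgroup Dˣ := N.map ρ
    let W' : Subgroup Dˣ := W.map ρ
    have hpow : ∀ a : A, ∃ n : ℕ, 0 < n ∧ ∀ x ∈ N', (ρ a) ^ n * x = x * (ρ a) ^ n := by
      intro a
      apply central_power k N' W' (ρ a) (fun n => by simpa using hρ (a ^ n))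
        (by simpa using hρ a⁻¹)
      · rintro _ ⟨x, hx, rfl⟩
        exact ⟨a * x * a⁻¹, hNn.conj_mem x hx a, by simp⟩
      · rintro _ ⟨x, hx, rfl⟩
        refine ⟨a⁻¹ * x * a, ?_, by simp⟩
        simpa using hNn.conj_mem x hx a⁻¹
      · rintro _ ⟨w, hw, rfl⟩ _ ⟨x, hx, rfl⟩
        exact hW w hw x
      · rintro _ ⟨w, hw, rfl⟩ _ ⟨x, hx, rfl⟩
        exact hW w hw x
      · rintro _ ⟨x, hx, rfl⟩ _ ⟨y, hy, rfl⟩
        refine ⟨x * y * x⁻¹ * y⁻¹, hle ?_, by simp⟩
        rw [derivedSeries_succ]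
        exact Subgroup.commutator_mem_commutator hx hy
    let C : Subgroup A := (Subgroup.centralizer (N' : Set Dˣ)).comap ρ
    have hCmem : ∀ a, a ∈ C ↔ ∀ x ∈ N, ρ x * ρ a = ρ a * ρ x := by
      intro a
      simp only [C, Subgroup.mem_comap, Subgroup.mem_centralizer_iff, N']
      constructor
      · intro h x hx
        exact h _ ⟨x, hx, rfl⟩
      · rintro h _ ⟨x, hx, rfl⟩
        exact h x hx
    haveI hCn : C.Normal := by
      refine ⟨fun c hc a => ?_⟩
      rw [hCmem] at hc ⊢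
      intro x hx
      have hx' : a⁻¹ * x * a ∈ N := by simpa using hNn.conj_mem x hx a⁻¹
      have h := hc _ hx'
      simp only [map_mul, map_inv] at h ⊢
      have e1 : ρ x * (ρ a * ρ c * (ρ a)⁻¹) = ρ a * ((ρ a)⁻¹ * ρ x * ρ a * ρ c) * (ρ a)⁻¹ := by group
      have e2 : ρ a * ρ c * (ρ a)⁻¹ * ρ x = ρ a * (ρ c * ((ρ a)⁻¹ * ρ x * ρ a)) * (ρ a)⁻¹ := by group
      rw [e1, e2, h]
    have htors : IsMulTorsion (A ⧸ C) := by
      intro q
      obtain ⟨a, rfl⟩ := QuotientGroup.mk_surjective q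
      obtain ⟨n, hn, hcom⟩ := hpow a
      rw [isOfFinOrder_iff_pow_eq_one]
      refine ⟨n, hn, ?_⟩
      rw [← QuotientGroup.mk_pow, QuotientGroup.eq_one_iff, hCmem]
      intro x hx
      rw [map_pow]
      exact (hcom _ ⟨x, hx, rfl⟩).symm
    haveI : Group.FG (A ⧸ C) := QuotientGroup.fg C
    haveI : Finite (A ⧸ C) := finite_of_fg_solvable_torsion _ htors
    haveI : C.FiniteIndex := Subgroup.finiteIndex_of_finite_quotient
    obtain ⟨B₁, hB₁, hcomB⟩ := ih (↥C) (ρ.comp C.subtype) (N.comap C.subtype)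
      (fun c => hρ c)
      (by
        intro w hw c
        simp only [MonoidHom.comp_apply]
        exact (hCmem c.1).mp c.2 _ hw)
      (by
        intro y hy
        exact map_derivedSeries_le_derivedSeries C.subtype ℓ ⟨y, hy, rfl⟩)
    refine ⟨B₁.map C.subtype, ?_, ?_⟩
    · refine ⟨?_⟩
      rw [Subgroup.index_map_subtype]
      exact mul_ne_zero hB₁.index_ne_zero Subgroup.FiniteIndex.index_ne_zero
    · rintro _ ⟨a, ha, rfl⟩ _ ⟨b, hb, rfl⟩
      exact hcomB a ha b hb



include k in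
theorem virtually_abelian_of_virtually_solvable (G : Subgroup Dˣ)
    (halg : ∀ g ∈ G, IsIntegral k ((g : Dˣ) : D)) (hG : G.FG) (H : Subgroup G)
    (hH : H.FiniteIndex) (hS : Group.IsSolvable H) :
    ∃ B : Subgroup G, B.FiniteIndex ∧ ∀ a ∈ B, ∀ b ∈ B, a * b = b * a := by
  haveI : Group.FG G := (Group.fg_iff_subgroup_fg G).mpr hG
  haveI : Group.FG H := inferInstance
  obtain ⟨ℓ, hℓ⟩ := (Group.isSolvable_def H).mp hS
  obtain ⟨B₁, hB₁, hcom⟩ := main_induction k ℓ (↥H) (G.subtype.comp H.subtype) ⊥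
    (fun a => halg _ a.1.2)
    (by
      intro w hw a
      rw [Subgroup.mem_bot] at hw
      simp [hw])
    (by rw [hℓ])
  refine ⟨B₁.map H.subtype, ⟨?_⟩, ?_⟩
  · rw [Subgroup.index_map_subtype]
    exact mul_ne_zero hB₁.index_ne_zero hH.index_ne_zero
  · rintro _ ⟨a, ha, rfl⟩ _ ⟨b, hb, rfl⟩
    have := hcom a ha b hb
    apply Subtype.ext
    simpa using this

include k in
theorem exists_finset_of_mem_adjoin (G : Subgroup Dˣ) (x : D)
    (hx : x ∈ Algebra.adjoin k ((fun u : Dˣ => (u : D)) '' (G : Set Dˣ))) :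
    ∃ F : Finset Dˣ, (F : Set Dˣ) ⊆ G ∧ x ∈ Algebra.adjoin k ((fun u : Dˣ => (u : D)) '' (F : Set Dˣ)) := by
  classical
  induction hx using Algebra.adjoin_induction with
  | mem y hy =>
    obtain ⟨u, hu, rfl⟩ := hy
    refine ⟨{u}, by simpa using hu, Algebra.subset_adjoin ⟨u, by simp, rfl⟩⟩
  | algebraMap r =>
    exact ⟨∅, by simp, Subalgebra.algebraMap_mem _ r⟩
  | add y z _ _ hy hz =>
    obtain ⟨F₁, hF₁, h₁⟩ := hy
    obtain ⟨F₂, hF₂, h₂⟩ := hz
    refine ⟨F₁ ∪ F₂, by simpa [Set.union_subset_iff] using ⟨hF₁, hF₂⟩, Subalgebra.add_mem _ ?_ ?_⟩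
    · exact Algebra.adjoin_mono (Set.image_mono (by simp)) h₁
    · exact Algebra.adjoin_mono (Set.image_mono (by simp)) h₂
  | mul y z _ _ hy hz =>
    obtain ⟨F₁, hF₁, h₁⟩ := hy
    obtain ⟨F₂, hF₂, h₂⟩ := hz
    refine ⟨F₁ ∪ F₂, by simpa [Set.union_subset_iff] using ⟨hF₁, hF₂⟩, Subalgebra.mul_mem _ ?_ ?_⟩
    · exact Algebra.adjoin_mono (Set.image_mono (by simp)) h₁
    · exact Algebra.adjoin_mono (Set.image_mono (by simp)) h₂

end Vale.Agent.P199

namespace Vale.Agent.P199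

variable (k : Type v) {D : Type u} [Field k] [DivisionRing D] [Algebra k D]

/-- the `k`-subalgebra of `D` generated by a subgroup of units -/
abbrev gAlg (H : Subgroup Dˣ) : Subalgebra k D :=
  Algebra.adjoin k ((fun u : Dˣ => (u : D)) '' (H : Set Dˣ))

/-- every finitely generated subgroup below `G` spans a finite-dimensional subalgebra -/
def Good (G : Subgroup Dˣ) : Prop :=
  ∀ H : Subgroup Dˣ, H ≤ G → H.FG → Module.Finite k (gAlg k H)

variable {k}

theorem Good.mono {G G' : Subgroup Dˣ} (h : Good k G) (hle : G' ≤ G) : Good k G' :=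
  fun H hH hfg => h H (hH.trans hle) hfg

theorem good_bot : Good k (⊥ : Subgroup Dˣ) := by
  intro H hH _
  have hle : Subalgebra.toSubmodule (gAlg k H) ≤ Subalgebra.toSubmodule (⊥ : Subalgebra k D) := by
    show gAlg k H ≤ ⊥
    apply Algebra.adjoin_le
    rintro _ ⟨u, hu, rfl⟩
    have : u = 1 := by simpa using hH hu
    simp only [this, Units.val_one]
    exact Subalgebra.one_mem _
  haveI : FiniteDimensional k (Subalgebra.toSubmodule (⊥ : Subalgebra k D)) :=
    inferInstanceAs (FiniteDimensional k (⊥ : Subalgebra k D))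
  exact Submodule.finiteDimensional_of_le hle

theorem finite_of_le {A B : Subalgebra k D} [Module.Finite k B] (h : A ≤ B) : Module.Finite k A := by
  have hle : Subalgebra.toSubmodule A ≤ Subalgebra.toSubmodule B := h
  haveI : FiniteDimensional k (Subalgebra.toSubmodule B) :=
    inferInstanceAs (FiniteDimensional k B)
  exact Submodule.finiteDimensional_of_le hle

theorem inv_mem_of_finite (A : Subalgebra k D) [Module.Finite k A] (u : Dˣ) (hu : (u : D) ∈ A) :
    ((u⁻¹ : Dˣ) : D) ∈ A := by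
  let a : A := ⟨u, hu⟩
  have hinj : Function.Injective (LinearMap.mulLeft k a) := by
    intro x y hxy
    have h1 : (u : D) * (x : D) = (u : D) * (y : D) := congrArg Subtype.val hxy
    exact Subtype.ext (mul_left_cancel₀ u.ne_zero h1)
  obtain ⟨y, hy⟩ := (LinearMap.injective_iff_surjective.mp hinj) 1
  have h1 : (u : D) * (y : D) = 1 := congrArg Subtype.val hy
  have h2 : (y : D) = ((u⁻¹ : Dˣ) : D) := by
    calc (y : D) = ((u⁻¹ : Dˣ) : D) * ((u : D) * (y : D)) := by simp
      _ = ((u⁻¹ : Dˣ) : D) := by rw [h1, mul_one]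
  exact h2 ▸ y.2

/-- the units of a finite-dimensional subalgebra, as a subgroup -/
def unitsOf (A : Subalgebra k D) [Module.Finite k A] : Subgroup Dˣ where
  carrier := {u | (u : D) ∈ A}
  mul_mem' := fun {a b} ha hb => by
    simp only [Set.mem_setOf_eq, Units.val_mul] at *
    exact A.mul_mem ha hb
  one_mem' := by
    simp only [Set.mem_setOf_eq, Units.val_one]
    exact A.one_mem
  inv_mem' := fun {a} ha => inv_mem_of_finite A a ha

theorem gAlg_le_of_subgroup (A : Subalgebra k D) [Module.Finite k A] (H : Subgroup Dˣ)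
    (h : H ≤ unitsOf A) : gAlg k H ≤ A := by
  apply Algebra.adjoin_le
  rintro _ ⟨u, hu, rfl⟩
  exact h hu

/-- orbit span under conjugation is finite-dimensional -/
theorem orbit_fg (g x : Dˣ) (hg : IsIntegral k (g : D)) (hg' : IsIntegral k ((g⁻¹ : Dˣ) : D)) :
    (Submodule.span k (Set.range fun j : ℕ => ((g ^ j * x * (g ^ j)⁻¹ : Dˣ) : D))).FG := by
  have hE := hg.fg_adjoin_singleton
  have hF := hg'.fg_adjoin_singleton
  have hU : (((Subalgebra.toSubmodule (Algebra.adjoin k {(g : D)})) *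
      Submodule.span k {(x : D)}) *
      Subalgebra.toSubmodule (Algebra.adjoin k {((g⁻¹ : Dˣ) : D)})).FG :=
    (hE.mul (Submodule.fg_span_singleton _)).mul hF
  have hle : Submodule.span k (Set.range fun j : ℕ => ((g ^ j * x * (g ^ j)⁻¹ : Dˣ) : D)) ≤
      ((Subalgebra.toSubmodule (Algebra.adjoin k {(g : D)})) *
      Submodule.span k {(x : D)}) *
      Subalgebra.toSubmodule (Algebra.adjoin k {((g⁻¹ : Dˣ) : D)}) := by
    rw [Submodule.span_le]
    rintro _ ⟨j, rfl⟩
    have h1 : ((g ^ j : Dˣ) : D) ∈ Algebra.adjoin k {(g : D)} := by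
      rw [Units.val_pow_eq_pow_val]
      exact pow_mem (Algebra.subset_adjoin (Set.mem_singleton _)) j
    have h2 : (((g ^ j)⁻¹ : Dˣ) : D) ∈ Algebra.adjoin k {((g⁻¹ : Dˣ) : D)} := by
      rw [← inv_pow, Units.val_pow_eq_pow_val]
      exact pow_mem (Algebra.subset_adjoin (Set.mem_singleton _)) j
    simp only [Units.val_mul]
    exact Submodule.mul_mem_mul (Submodule.mul_mem_mul h1 (Submodule.mem_span_singleton_self _)) h2
  haveI : FiniteDimensional k _ := Module.Finite.iff_fg.mpr hU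
  have := Submodule.finiteDimensional_of_le hle
  exact Module.Finite.iff_fg.mp this

/-- extension by a normalising algebraic element -/
theorem finite_adjoin_normalising (E : Subalgebra k D) [Module.Finite k E] (g : Dˣ)
    (hg : IsIntegral k (g : D))
    (hσ : ∀ e ∈ E, (g : D) * e * ((g⁻¹ : Dˣ) : D) ∈ E) :
    Module.Finite k (Algebra.adjoin k ((E : Set D) ∪ {(g : D)})) := by
  have hE : (Subalgebra.toSubmodule E).FG := Module.Finite.iff_fg.mp (inferInstanceAs (Module.Finite k E))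
  have hF := hg.fg_adjoin_singleton
  let U := Subalgebra.toSubmodule E * Subalgebra.toSubmodule (Algebra.adjoin k {(g : D)})
  have hU : U.FG := hE.mul hF
  have hmul : ∀ a ∈ Algebra.adjoin k ((E : Set D) ∪ {(g : D)}), ∀ u ∈ U, a * u ∈ U := by
    intro a ha
    induction ha using Algebra.adjoin_induction with
    | mem a ha =>
      rcases ha with ha | ha
      · intro u hu
        induction hu using Submodule.mul_induction_on' with
        | mem_mul_mem m hm n hn =>
          rw [← mul_assoc]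
          exact Submodule.mul_mem_mul (E.mul_mem ha hm) hn
        | add x _ y _ hx hy =>
          rw [mul_add]
          exact U.add_mem hx hy
      · rw [Set.mem_singleton_iff] at ha
        subst ha
        intro u hu
        induction hu using Submodule.mul_induction_on' with
        | mem_mul_mem m hm n hn =>
          have h1 : (g : D) * (m * n) = ((g : D) * m * ((g⁻¹ : Dˣ) : D)) * ((g : D) * n) := by
            simp [mul_assoc]
          rw [h1]
          exact Submodule.mul_mem_mul (hσ m hm)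
            (Subalgebra.mul_mem _ (Algebra.subset_adjoin (Set.mem_singleton _)) hn)
        | add x _ y _ hx hy =>
          rw [mul_add]
          exact U.add_mem hx hy
    | algebraMap r =>
      intro u hu
      rw [← Algebra.smul_def]
      exact U.smul_mem r hu
    | add x y _ _ hx hy =>
      intro u hu
      rw [add_mul]
      exact U.add_mem (hx u hu) (hy u hu)
    | mul x y _ _ hx hy =>
      intro u hu
      rw [mul_assoc]
      exact hx _ (hy u hu)
  have h1 : (1 : D) ∈ U := by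
    have := Submodule.mul_mem_mul (show (1 : D) ∈ Subalgebra.toSubmodule E from E.one_mem)
      (show (1 : D) ∈ Subalgebra.toSubmodule (Algebra.adjoin k {(g : D)}) from Subalgebra.one_mem _)
    simpa using this
  have hle : Subalgebra.toSubmodule (Algebra.adjoin k ((E : Set D) ∪ {(g : D)})) ≤ U := by
    intro a ha
    have := hmul a ha 1 h1
    simpa using this
  haveI : FiniteDimensional k U := Module.Finite.iff_fg.mpr hU
  exact Submodule.finiteDimensional_of_le hle


private theorem zpow_conj_mem (M : Subgroup Dˣ) (g : Dˣ)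
    (h1 : ∀ m ∈ M, g * m * g⁻¹ ∈ M) (h2 : ∀ m ∈ M, g⁻¹ * m * g ∈ M) (z : ℤ) :
    ∀ m ∈ M, g ^ z * m * (g ^ z)⁻¹ ∈ M := by
  induction z using Int.induction_on with
  | zero => intro m hm; simpa using hm
  | succ n ih =>
    intro m hm
    have := h1 _ (ih m hm)
    have e : g ^ ((n : ℤ) + 1) * m * (g ^ ((n : ℤ) + 1))⁻¹ = g * (g ^ (n : ℤ) * m * (g ^ (n : ℤ))⁻¹) * g⁻¹ := by
      rw [zpow_add_one, (Commute.refl g).zpow_left (n : ℤ) |>.eq]
      group
    rw [e]; exact this
  | pred n ih =>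
    intro m hm
    have := h2 _ (ih m hm)
    have e : g ^ (-(n : ℤ) - 1) * m * (g ^ (-(n : ℤ) - 1))⁻¹ = g⁻¹ * (g ^ (-(n : ℤ)) * m * (g ^ (-(n : ℤ)))⁻¹) * g := by
      rw [zpow_sub_one, (Commute.refl g).inv_right.zpow_left (-(n : ℤ)) |>.eq]
      group
    rw [e]; exact this

private theorem mem_sup_zpowers (M : Subgroup Dˣ) (g : Dˣ)
    (h1 : ∀ m ∈ M, g * m * g⁻¹ ∈ M) (h2 : ∀ m ∈ M, g⁻¹ * m * g ∈ M) (h : Dˣ)
    (hh : h ∈ M ⊔ Subgroup.zpowers g) : ∃ m ∈ M, ∃ z : ℤ, h = m * g ^ z := by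
  rw [Subgroup.sup_eq_closure] at hh
  induction hh using Subgroup.closure_induction with
  | mem x hx =>
    rcases hx with hx | hx
    · exact ⟨x, hx, 0, by simp⟩
    · obtain ⟨z, rfl⟩ := Subgroup.mem_zpowers_iff.mp hx
      exact ⟨1, M.one_mem, z, by simp⟩
  | one => exact ⟨1, M.one_mem, 0, by simp⟩
  | mul x y _ _ hx hy =>
    obtain ⟨m, hm, z, rfl⟩ := hx
    obtain ⟨m', hm', z', rfl⟩ := hy
    refine ⟨m * (g ^ z * m' * (g ^ z)⁻¹), M.mul_mem hm (zpow_conj_mem M g h1 h2 z m' hm'), z + z', ?_⟩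
    rw [zpow_add]
    group
  | inv x _ hx =>
    obtain ⟨m, hm, z, rfl⟩ := hx
    refine ⟨g ^ (-z) * m⁻¹ * (g ^ (-z))⁻¹, zpow_conj_mem M g h1 h2 (-z) _ (M.inv_mem hm), -z, ?_⟩
    group

/-- The cyclic extension step. -/
theorem good_sup_zpowers (M : Subgroup Dˣ) (g : Dˣ) (hg : IsIntegral k (g : D))
    (hg' : IsIntegral k ((g⁻¹ : Dˣ) : D)) (hM : Good k M)
    (h1 : ∀ m ∈ M, g * m * g⁻¹ ∈ M) (h2 : ∀ m ∈ M, g⁻¹ * m * g ∈ M) :
    Good k (M ⊔ Subgroup.zpowers g) := by
  classical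
  rintro H hle ⟨T, hT⟩
  have hrep : ∀ t ∈ T, ∃ m ∈ M, ∃ z : ℤ, t = m * g ^ z := fun t ht =>
    mem_sup_zpowers M g h1 h2 t (hle (hT ▸ Subgroup.subset_closure ht))
  choose! m hm z hz using hrep
  -- the orbit family
  let orb : T × ℕ → Dˣ := fun p => g ^ p.2 * m p.1 * (g ^ p.2)⁻¹
  have horbM : ∀ p, orb p ∈ M := by
    rintro ⟨t, j⟩
    have := zpow_conj_mem M g h1 h2 (j : ℤ) (m t) (hm t t.2)
    simpa [orb] using this
  have hfg : (Submodule.span k (Set.range fun p => ((orb p : Dˣ) : D))).FG := by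
    have hV : (⨆ t : T, Submodule.span k (Set.range fun j : ℕ => ((g ^ j * m t * (g ^ j)⁻¹ : Dˣ) : D))).FG :=
      Submodule.fg_iSup _ fun t => orbit_fg g (m t) hg hg'
    haveI : FiniteDimensional k _ := Module.Finite.iff_fg.mpr hV
    have hle : Submodule.span k (Set.range fun p => ((orb p : Dˣ) : D)) ≤
        ⨆ t : T, Submodule.span k (Set.range fun j : ℕ => ((g ^ j * m t * (g ^ j)⁻¹ : Dˣ) : D)) := by
      rw [Submodule.span_le]
      rintro _ ⟨⟨t, j⟩, rfl⟩
      exact Submodule.mem_iSup_of_mem t (Submodule.subset_span ⟨j, rfl⟩)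
    exact Module.Finite.iff_fg.mp (Submodule.finiteDimensional_of_le hle)
  obtain ⟨Y, hYsub, hYspan⟩ := (Submodule.fg_span_iff_fg_span_finset_subset _).mp hfg
  let Y' : Set Dˣ := Units.val ⁻¹' (Y : Set D)
  have hY'fin : Y'.Finite := (Y.finite_toSet).preimage Units.val_injective.injOn
  have hY'M : Y' ≤ M := by
    intro u hu
    obtain ⟨p, hp⟩ := hYsub hu
    have : orb p = u := Units.ext hp
    exact this ▸ horbM p
  have hYimg : ∀ y ∈ Y, ∃ u ∈ Y', (u : D) = y := by
    intro y hy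
    obtain ⟨p, hp⟩ := hYsub hy
    exact ⟨orb p, by show ((orb p : Dˣ) : D) ∈ (Y : Set D); rw [show ((orb p : Dˣ) : D) = y from hp]; exact hy, hp⟩
  let H₀ : Subgroup Dˣ := Subgroup.closure Y'
  have hH₀M : H₀ ≤ M := (Subgroup.closure_le M).mpr hY'M
  have hH₀fg : H₀.FG := ⟨hY'fin.toFinset, by rw [Set.Finite.coe_toFinset]⟩
  haveI hfin₀ := hM H₀ hH₀M hH₀fg
  let E : Subalgebra k D := Algebra.adjoin k (Y : Set D)
  have hEle : E ≤ gAlg k H₀ := by
    apply Algebra.adjoin_le
    intro y hy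
    obtain ⟨u, hu, rfl⟩ := hYimg y hy
    exact Algebra.subset_adjoin ⟨u, Subgroup.subset_closure hu, rfl⟩
  haveI hEfin : Module.Finite k E := finite_of_le hEle
  have hspan : ∀ x ∈ Submodule.span k (Set.range fun p => ((orb p : Dˣ) : D)), x ∈ E := by
    intro x hx
    rw [hYspan] at hx
    have hle : Submodule.span k (Y : Set D) ≤ Subalgebra.toSubmodule E := by
      rw [Submodule.span_le]
      exact Algebra.subset_adjoin
    exact hle hx
  have hσ : ∀ e ∈ E, (g : D) * e * ((g⁻¹ : Dˣ) : D) ∈ E := by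
    intro e he
    induction he using Algebra.adjoin_induction with
    | mem y hy =>
      obtain ⟨⟨t, j⟩, rfl⟩ := hYsub hy
      apply hspan
      apply Submodule.subset_span
      refine ⟨⟨t, j + 1⟩, ?_⟩
      simp only [orb, Units.val_mul, pow_succ', mul_inv_rev]
      simp [mul_assoc]
    | algebraMap r =>
      rw [← Algebra.commutes, mul_assoc]
      simp only [Units.mul_inv, mul_one]
      exact Subalgebra.algebraMap_mem _ r
    | add x y _ _ hx hy =>
      rw [mul_add, add_mul]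
      exact E.add_mem hx hy
    | mul x y _ _ hx hy =>
      have e1 : (g : D) * (x * y) * ((g⁻¹ : Dˣ) : D) =
          ((g : D) * x * ((g⁻¹ : Dˣ) : D)) * ((g : D) * y * ((g⁻¹ : Dˣ) : D)) := by
        simp [mul_assoc]
      rw [e1]
      exact E.mul_mem hx hy
  haveI hAfin := finite_adjoin_normalising E g hg hσ
  have hH : H ≤ unitsOf (Algebra.adjoin k ((E : Set D) ∪ {(g : D)})) := by
    rw [← hT, Subgroup.closure_le]
    intro t ht
    have htT : t ∈ T := ht
    have hgmem : g ∈ unitsOf (Algebra.adjoin k ((E : Set D) ∪ {(g : D)})) :=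
      Algebra.subset_adjoin (Or.inr (Set.mem_singleton _))
    have hmmem : m t ∈ unitsOf (Algebra.adjoin k ((E : Set D) ∪ {(g : D)})) := by
      have h0 : ((m t : Dˣ) : D) ∈ E := by
        apply hspan
        apply Submodule.subset_span
        exact ⟨⟨⟨t, htT⟩, 0⟩, by simp [orb]⟩
      exact Algebra.subset_adjoin (Or.inl h0)
    rw [hz t htT]
    exact Subgroup.mul_mem _ hmmem (Subgroup.zpow_mem _ hgmem _)
  exact finite_of_le (gAlg_le_of_subgroup _ H hH)


/-- Finite index step. -/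
theorem finite_of_finiteIndex (H : Subgroup Dˣ) (B : Subgroup H) [hB : B.FiniteIndex]
    (hfin : Module.Finite k (gAlg k (B.map H.subtype))) : Module.Finite k (gAlg k H) := by
  classical
  have hfg : (Subalgebra.toSubmodule (gAlg k (B.map H.subtype))).FG := Module.Finite.iff_fg.mp hfin
  haveI : Finite (H ⧸ B) := Subgroup.finite_quotient_of_finiteIndex
  let V : (H ⧸ B) → Submodule k D := fun q =>
    (Subalgebra.toSubmodule (gAlg k (B.map H.subtype))).map
      (LinearMap.mulLeft k (((q.out : H) : Dˣ) : D))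
  have hVfg : (⨆ q, V q).FG := Submodule.fg_iSup V fun q => hfg.map _
  have hGmem : ∀ g : H, ((g : Dˣ) : D) ∈ ⨆ q, V q := by
    intro g
    obtain ⟨h, hh⟩ := QuotientGroup.mk_out_eq_mul B g
    have h1 : g = (g : H ⧸ B).out * (h⁻¹ : B) := by
      rw [hh]; simp
    refine Submodule.mem_iSup_of_mem (g : H ⧸ B) ?_
    refine ⟨(((h⁻¹ : B) : H) : Dˣ), ?_, ?_⟩
    · exact Algebra.subset_adjoin ⟨_, ⟨_, (h⁻¹ : B).2, rfl⟩, rfl⟩
    · have h2 := congrArg (fun z : H => ((z : Dˣ) : D)) h1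
      simp only [LinearMap.mulLeft_apply]
      exact h2.symm
  have hle : Subalgebra.toSubmodule (gAlg k H) ≤ ⨆ q, V q := by
    rw [Algebra.adjoin_eq_span, Submodule.span_le]
    have hcl : (Submonoid.closure ((fun u : Dˣ => (u : D)) '' (H : Set Dˣ)) : Submonoid D) ≤
        H.toSubmonoid.map (Units.coeHom D) := by
      rw [Submonoid.closure_le]
      rintro _ ⟨u, hu, rfl⟩
      exact ⟨u, hu, rfl⟩
    intro x hx
    obtain ⟨u, hu, rfl⟩ := hcl hx
    exact hGmem ⟨u, hu⟩
  haveI : FiniteDimensional k ↥(⨆ q, V q) := Module.Finite.iff_fg.mpr hVfg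
  exact Submodule.finiteDimensional_of_le hle

end Vale.Agent.P199

namespace Vale.Agent.P199

variable {k : Type v} {D : Type u} [Field k] [DivisionRing D] [Algebra k D]

/-- extension property of a quotient group -/
def ExtProp (k : Type v) (D : Type u) [Field k] [DivisionRing D] [Algebra k D]
    (Q : Type u) [Group Q] : Prop :=
  ∀ (G : Subgroup Dˣ) (φ : G →* Q), (∀ g ∈ G, IsIntegral k ((g : Dˣ) : D)) →
    Good k (φ.ker.map G.subtype) → Good k G

private theorem fg_map_aux {G G' : Type u} [Group G] [Group G'] (f : G →* G') {H : Subgroup G}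
    (h : H.FG) : (H.map f).FG := by
  classical
  obtain ⟨S, rfl⟩ := h
  exact ⟨S.image f, by simp [MonoidHom.map_closure]⟩

theorem extProp_of_finite (Q : Type u) [Group Q] [Finite Q] : ExtProp k D Q := by
  intro G φ hint hK H hHG hfg
  let ψ : H →* Q := φ.comp (Subgroup.inclusion hHG)
  haveI : Group.FG H := (Group.fg_iff_subgroup_fg H).mpr hfg
  have hfg' : Group.FG ψ.ker := inferInstance
  have hfg'' : (ψ.ker.map H.subtype).FG := fg_map_aux H.subtype ((Group.fg_iff_subgroup_fg _).mp hfg')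
  have hle : ψ.ker.map H.subtype ≤ φ.ker.map G.subtype := by
    rintro _ ⟨x, hx, rfl⟩
    exact ⟨Subgroup.inclusion hHG x, hx, rfl⟩
  exact finite_of_finiteIndex H ψ.ker (hK _ hle hfg'')

theorem extProp_of_comm (Q : Type u) [Group Q] (h : ∀ a b : Q, a * b = b * a) : ExtProp k D Q := by
  classical
  intro G φ hint hK
  have hc : ∀ a ∈ G, ∀ b ∈ G, a * b * a⁻¹ * b⁻¹ ∈ φ.ker.map G.subtype := by
    intro a ha b hb
    refine ⟨(⟨a, ha⟩ : G) * ⟨b, hb⟩ * (⟨a, ha⟩ : G)⁻¹ * (⟨b, hb⟩ : G)⁻¹, ?_, rfl⟩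
    show φ _ = 1
    simp only [map_mul, map_inv]
    rw [h (φ ⟨a, ha⟩) (φ ⟨b, hb⟩)]
    group
  have hKG : φ.ker.map G.subtype ≤ G := Subgroup.map_subtype_le _
  have key : ∀ F : Finset Dˣ, (F : Set Dˣ) ⊆ G →
      Good k (φ.ker.map G.subtype ⊔ Subgroup.closure (F : Set Dˣ)) := by
    intro F
    induction F using Finset.induction_on with
    | empty =>
      intro _
      simpa using hK
    | insert g F _ ih =>
      intro hF
      have hFG : (F : Set Dˣ) ⊆ G := fun x hx => hF (Finset.mem_insert_of_mem hx)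
      have hgG : g ∈ G := hF (Finset.mem_insert_self _ _)
      have hMG : φ.ker.map G.subtype ⊔ Subgroup.closure (F : Set Dˣ) ≤ G :=
        sup_le hKG ((Subgroup.closure_le G).mpr hFG)
      have h1 : ∀ m ∈ φ.ker.map G.subtype ⊔ Subgroup.closure (F : Set Dˣ),
          g * m * g⁻¹ ∈ φ.ker.map G.subtype ⊔ Subgroup.closure (F : Set Dˣ) := by
        intro m hm
        have hc' := hc g hgG m (hMG hm)
        have : g * m * g⁻¹ = (g * m * g⁻¹ * m⁻¹) * m := by group
        rw [this]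
        exact Subgroup.mul_mem _ (Subgroup.mem_sup_left hc') hm
      have h2 : ∀ m ∈ φ.ker.map G.subtype ⊔ Subgroup.closure (F : Set Dˣ),
          g⁻¹ * m * g ∈ φ.ker.map G.subtype ⊔ Subgroup.closure (F : Set Dˣ) := by
        intro m hm
        have hc' := hc g⁻¹ (G.inv_mem hgG) m (hMG hm)
        have : g⁻¹ * m * g = (g⁻¹ * m * g⁻¹⁻¹ * m⁻¹) * m := by group
        rw [this]
        exact Subgroup.mul_mem _ (Subgroup.mem_sup_left hc') hm
      have hgood := good_sup_zpowers _ g (hint g hgG) (hint _ (G.inv_mem hgG)) (ih hFG) h1 h2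
      refine hgood.mono (sup_le ?_ ?_)
      · exact le_sup_left.trans le_sup_left
      · rw [Subgroup.closure_le]
        intro x hx
        rw [Finset.coe_insert] at hx
        rcases hx with rfl | hx
        · exact Subgroup.mem_sup_right (Subgroup.mem_zpowers _)
        · exact Subgroup.mem_sup_left (Subgroup.mem_sup_right (Subgroup.subset_closure hx))
  rintro H hHG ⟨T, hT⟩
  exact key T (fun t ht => hHG (hT ▸ Subgroup.subset_closure ht)) H (hT ▸ le_sup_right) ⟨T, hT⟩

theorem extProp_of_extension (Q : Type u) [Group Q] (R : Subgroup Q) [R.Normal]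
    (h1 : ExtProp k D R) (h2 : ExtProp k D (Q ⧸ R)) : ExtProp k D Q := by
  intro G φ hint hK
  let ψ : G →* Q ⧸ R := (QuotientGroup.mk' R).comp φ
  have hG₁ : ψ.ker.map G.subtype ≤ G := Subgroup.map_subtype_le _
  apply h2 G ψ hint
  let φ₁ : (ψ.ker.map G.subtype : Subgroup Dˣ) →* R :=
    (φ.comp (Subgroup.inclusion hG₁)).codRestrict R (by
      rintro ⟨_, x, hx, rfl⟩
      have : ψ x = 1 := hx
      have h4 : φ x ∈ R := by simpa [ψ] using this
      exact h4)
  apply h1 _ φ₁ (fun g hg => hint g (hG₁ hg))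
  refine hK.mono ?_
  rintro _ ⟨x, hx, rfl⟩
  refine ⟨Subgroup.inclusion hG₁ x, ?_, rfl⟩
  have : φ₁ x = 1 := hx
  have h3 := congrArg Subtype.val this
  exact h3

theorem extProp_of_union (Q : Type u) [Group Q] (ι : Type u) (F : ι → Subgroup Q)
    (hd : Directed (· ≤ ·) F) (hU : ∀ g, ∃ i, g ∈ F i)
    (hF : ∀ i, ExtProp k D (F i)) : ExtProp k D Q := by
  classical
  intro G φ hint hK H hHG ⟨T, hT⟩
  haveI : Nonempty ι := ⟨(hU 1).choose⟩
  have hT' : ∀ t ∈ T, t ∈ G := fun t ht => hHG (hT ▸ Subgroup.subset_closure ht)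
  have hi : ∀ t : T, ∃ i, φ ⟨t, hT' t t.2⟩ ∈ F i := fun t => hU _
  choose i hi using hi
  obtain ⟨i₀, hi₀⟩ := hd.finset_le (T.attach.image i)
  have hmem : ∀ t : T, φ ⟨t, hT' t t.2⟩ ∈ F i₀ := fun t =>
    hi₀ (i t) (Finset.mem_image.mpr ⟨t, Finset.mem_attach _ _, rfl⟩) (hi t)
  let G₀ : Subgroup Dˣ := ((F i₀).comap φ).map G.subtype
  have hG₀ : G₀ ≤ G := Subgroup.map_subtype_le _
  let φ₀ : G₀ →* F i₀ :=
    (φ.comp (Subgroup.inclusion hG₀)).codRestrict (F i₀) (by
      rintro ⟨_, x, hx, rfl⟩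
      exact hx)
  have hgood : Good k G₀ := by
    apply hF i₀ G₀ φ₀ (fun g hg => hint g (hG₀ hg))
    refine hK.mono ?_
    rintro _ ⟨x, hx, rfl⟩
    refine ⟨Subgroup.inclusion hG₀ x, ?_, rfl⟩
    have : φ₀ x = 1 := hx
    exact congrArg Subtype.val this
  refine hgood H ?_ ⟨T, hT⟩
  rw [← hT, Subgroup.closure_le]
  intro t ht
  exact ⟨⟨t, hT' t ht⟩, hmem ⟨t, ht⟩, rfl⟩

theorem extProp_of_ea (Q : Type u) [Group Q] (h : IsElementaryAmenable Q) : ExtProp k D Q := by
  induction h with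
  | of_finite G => exact extProp_of_finite G
  | of_comm G h => exact extProp_of_comm G h
  | of_extension G N _ _ ih1 ih2 => exact extProp_of_extension G N ih1 ih2
  | of_union G ι F hd hU _ ih => exact extProp_of_union G ι F hd hU ih

theorem ea_of_derivedSeries (n : ℕ) : ∀ (A : Type u) [Group A], derivedSeries A n = ⊥ →
    IsElementaryAmenable A := by
  induction n with
  | zero =>
    intro A _ h
    rw [derivedSeries_zero] at h
    refine IsElementaryAmenable.of_comm A fun a b => ?_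
    have ha : a ∈ (⊥ : Subgroup A) := h ▸ Subgroup.mem_top a
    have hb : b ∈ (⊥ : Subgroup A) := h ▸ Subgroup.mem_top b
    rw [Subgroup.mem_bot] at ha hb
    rw [ha, hb]
  | succ n ih =>
    intro A _ h
    have hmap : ∀ m : ℕ, (derivedSeries (commutator A) m).map (commutator A).subtype ≤
        derivedSeries A (m + 1) := by
      intro m
      induction m with
      | zero =>
        rw [derivedSeries_zero, ← MonoidHom.range_eq_map, Subgroup.range_subtype]
        exact le_rfl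
      | succ m ihm =>
        rw [derivedSeries_succ, Subgroup.map_commutator, derivedSeries_succ]
        exact Subgroup.commutator_mono ihm ihm
    have hd : derivedSeries (commutator A) n = ⊥ := by
      have := hmap n
      rw [h, le_bot_iff, Subgroup.map_eq_bot_iff_of_injective _ (Subgroup.subtype_injective _)] at this
      exact this
    exact IsElementaryAmenable.of_extension A (commutator A) (ih _ hd)
      (IsElementaryAmenable.of_comm _ fun a b => @mul_comm (Abelianization A) _ a b)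

theorem ea_of_virtually_solvable (A : Type u) [Group A] (H : Subgroup A) (hH : H.FiniteIndex)
    (hS : Group.IsSolvable H) : IsElementaryAmenable A := by
  haveI : H.normalCore.FiniteIndex := inferInstance
  haveI : Finite (A ⧸ H.normalCore) := Subgroup.finite_quotient_of_finiteIndex
  have hS' : Group.IsSolvable H.normalCore :=
    Group.isSolvable_of_isSolvable_injective (Subgroup.inclusion_injective H.normalCore_le)
  obtain ⟨n, hn⟩ := (Group.isSolvable_def _).mp hS'
  exact IsElementaryAmenable.of_extension A H.normalCore (ea_of_derivedSeries n _ hn)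
    (IsElementaryAmenable.of_finite _)

theorem locallyFinite_of_good (G : Subgroup Dˣ) (h : Good k G) :
    IsLocallyFiniteOver k (Algebra.adjoin k ((fun u : Dˣ => (u : D)) '' (G : Set Dˣ))) := by
  classical
  intro X hX hsub
  have hchoice : ∀ x ∈ X, ∃ F : Finset Dˣ, (F : Set Dˣ) ⊆ G ∧
      x ∈ Algebra.adjoin k ((fun u : Dˣ => (u : D)) '' (F : Set Dˣ)) :=
    fun x hx => exists_finset_of_mem_adjoin k G x (hsub hx)
  choose! F hF hxF using hchoice
  let U : Set Dˣ := ⋃ x ∈ X, (F x : Set Dˣ)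
  have hUfin : U.Finite := hX.biUnion fun x _ => (F x).finite_toSet
  have hUG : U ⊆ G := Set.iUnion₂_subset fun x hx => hF x hx
  have hG₀ : Subgroup.closure U ≤ G := (Subgroup.closure_le G).mpr hUG
  have hfg : (Subgroup.closure U).FG := ⟨hUfin.toFinset, by rw [Set.Finite.coe_toFinset]⟩
  haveI := h _ hG₀ hfg
  have hle : Algebra.adjoin k X ≤ gAlg k (Subgroup.closure U) := by
    apply Algebra.adjoin_le
    intro x hx
    refine Algebra.adjoin_mono (Set.image_mono ?_) (hxF x hx)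
    intro u hu
    exact Subgroup.subset_closure (Set.mem_biUnion hx hu)
  exact finite_of_le hle

theorem good_of_locallyFinite (G : Subgroup Dˣ)
    (h : IsLocallyFiniteOver k (Algebra.adjoin k ((fun u : Dˣ => (u : D)) '' (G : Set Dˣ)))) :
    Good k G := by
  rintro H hHG ⟨T, hT⟩
  haveI hfin := h ((fun u : Dˣ => (u : D)) '' (T : Set Dˣ)) (T.finite_toSet.image _) (by
    rintro _ ⟨t, ht, rfl⟩
    exact Algebra.subset_adjoin ⟨t, hHG (hT ▸ Subgroup.subset_closure ht), rfl⟩)
  have hH : H ≤ unitsOf (Algebra.adjoin k ((fun u : Dˣ => (u : D)) '' (T : Set Dˣ))) := by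
    rw [← hT, Subgroup.closure_le]
    intro t ht
    exact Algebra.subset_adjoin ⟨t, ht, rfl⟩
  exact finite_of_le (gAlg_le_of_subgroup _ H hH)

theorem good_of_ea (G : Subgroup Dˣ) (halg : ∀ g ∈ G, IsIntegral k ((g : Dˣ) : D))
    (h : IsElementaryAmenable G) : Good k G := by
  apply extProp_of_ea (k := k) (D := D) G h G (MonoidHom.id G) halg
  refine good_bot.mono ?_
  rintro _ ⟨x, hx, rfl⟩
  have : x = 1 := hx
  simp [this]

end Vale.Agent.P199
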