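import Mathlib

set_option linter.unusedSectionVars false
set_option linter.unusedVariables false

universe u v

/-- The class of elementary amenable groups, in the form due to Chou: the smallest class of groups
containing all finite groups and all abelian groups, closed under group extensions and under
directed unions. -/
inductive Vale.Agent.P199.IsElementaryAmenable : (G : Type u) → [Group G] → Prop
  | of_finite (G : Type u) [Group G] [Finite G] : IsElementaryAmenable G
  | of_comm (G : Type u) [Group G] (h : ∀ a b : G, a * b = b * a) : IsElementaryAmenable G
  | of_extension (G : Type u) [Group G] (N : Subgroup G) [N.Normal]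
      (hN : IsElementaryAmenable N) (hQ : IsElementaryAmenable (G ⧸ N)) : IsElementaryAmenable G
  | of_union (G : Type u) [Group G] (ι : Type u) (F : ι → Subgroup G)
      (hd : Directed (· ≤ ·) F) (hU : ∀ g, ∃ i, g ∈ F i)
      (hF : ∀ i, IsElementaryAmenable (F i)) : IsElementaryAmenable G

/-- A subalgebra `A` of `D` is locally finite over `k` when every finite subset of `A` generates
a finite-dimensional `k`-subalgebra. -/
def Vale.Agent.P199.IsLocallyFiniteOver (k : Type v) {D : Type u} [Field k] [Ring D] [Algebra k D]
    (A : Subalgebra k D) : Prop :=
  ∀ X : Set D, X.Finite → X ⊆ (A : Set D) → Module.Finite k (Algebra.adjoin k X)
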